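import Mathlib

namespace Vale.Agent.Results.P068.BoundedCommonIndep

open Set

variable {α : Type*}

/-- Triangular exchange lemma: if `I` is independent, the single exchanges `I - y i + x i`
are independent and the exchanges `I - y i + x j` with `i < j` are not, then the simultaneous
exchange `(I \ range y) ∪ range x` is independent. -/
theorem tri (M : Matroid α) {ι : Type*} [LinearOrder ι] [Finite ι] {I : Set α}
    (hI : M.Indep I) (x y : ι → α) (hy : ∀ i, y i ∈ I) (hx : ∀ i, x i ∉ I)
    (hd : ∀ i, M.Indep (insert (x i) I \ {y i}))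
    (hu : ∀ i j, i < j → ¬ M.Indep (insert (x j) I \ {y i})) :
    M.Indep ((I \ range y) ∪ range x) := by
  have hxE : ∀ i, x i ∈ M.E := by
    intro i
    refine (hd i).subset_ground ⟨mem_insert _ _, ?_⟩
    intro h
    exact hx i (by rw [mem_singleton_iff.1 h]; exact hy i)
  have hsub : (I \ range y) ∪ range x ⊆ M.E := by
    rintro z (hz | ⟨i, rfl⟩)
    · exact hI.subset_ground hz.1
    · exact hxE i
  by_contra hnot
  have hdep : M.Dep ((I \ range y) ∪ range x) := ⟨hnot, hsub⟩
  obtain ⟨C, hCsub, hC⟩ := hdep.exists_isCircuit_subset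
  have hCI : ¬ C ⊆ I := fun h => hC.not_indep (hI.subset h)
  obtain ⟨e, heC, heI⟩ := not_subset.1 hCI
  have hS : {i | x i ∈ C}.Nonempty := by
    rcases hCsub heC with hz | ⟨i, rfl⟩
    · exact absurd hz.1 heI
    · exact ⟨i, heC⟩
  obtain ⟨i0, hi0⟩ := (Set.toFinite {i | x i ∈ C}).exists_minimal hS
  have hi0C : x i0 ∈ C := hi0.1
  have hmin : ∀ j, x j ∈ C → i0 ≤ j := by
    intro j hj
    by_contra hlt
    rw [not_le] at hlt
    exact absurd (hi0.2 hj hlt.le) (not_le.2 hlt)
  have hIy : M.Indep (I \ {y i0}) := hI.subset sdiff_subset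
  have hcl : C \ {x i0} ⊆ M.closure (I \ {y i0}) := by
    rintro z ⟨hzC, hzne⟩
    rcases hCsub hzC with hz | ⟨j, rfl⟩
    · refine M.mem_closure_of_mem ⟨hz.1, ?_⟩ hIy.subset_ground
      intro h
      exact hz.2 ⟨i0, (mem_singleton_iff.1 h).symm⟩
    · have hij : i0 < j := lt_of_le_of_ne (hmin j hzC) (fun h => hzne (by rw [h]; rfl))
      have h1 := hu i0 j hij
      rw [Matroid.Indep.insert_sdiff_indep_iff hIy (hy i0)] at h1
      by_contra h2
      exact h1 (Or.inl ⟨hxE j, h2⟩)
  have h3 : x i0 ∈ M.closure (I \ {y i0}) :=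
    M.closure_subset_closure_of_subset_closure hcl (hC.mem_closure_sdiff_singleton_of_mem hi0C)
  have h4 := hd i0
  rw [Matroid.Indep.insert_sdiff_indep_iff hIy (hy i0)] at h4
  rcases h4 with h4 | h4
  · exact h4.2 h3
  · exact hx i0 h4

/-- `Exch M J x y`: `x ∉ J`, `y ∈ J` and exchanging `y` for `x` keeps `J` independent in `M`. -/
def Exch (M : Matroid α) (J : Set α) (x y : α) : Prop :=
  x ∉ J ∧ y ∈ J ∧ M.Indep (insert x J \ {y})

/-- Level sets of the exchange digraph: `lev 0` are the elements addable to `J` in `N`;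
`lev (n+1)` are the elements with a two-step exchange path into `lev n`. -/
def lev (M N : Matroid α) (J : Set α) : ℕ → Set α
  | 0 => {x | x ∉ J ∧ N.Indep (insert x J)}
  | (n+1) => {x | ∃ y x', Exch N J x y ∧ Exch M J x' y ∧ x' ∈ lev M N J n}

theorem lev_notMem (M N : Matroid α) (J : Set α) (n : ℕ) (x : α) (h : x ∈ lev M N J n) :
    x ∉ J := by
  cases n with
  | zero => exact h.1
  | succ n =>
    obtain ⟨y, x', h1, _, _⟩ := h
    exact h1.1

theorem exch_ground {M : Matroid α} {J : Set α} {x y : α} (h : Exch M J x y) : x ∈ M.E := by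
  refine h.2.2.subset_ground ⟨mem_insert _ _, ?_⟩
  intro h'
  exact h.1 (by rw [mem_singleton_iff.1 h']; exact h.2.1)

/-- If `e ∈ cl(J) \ J` is not in the closure of `K ⊆ J`, then some `z ∈ J \ K` can be
exchanged for `e`. -/
theorem exists_exch {M : Matroid α} {J K : Set α} (hJ : M.Indep J) {e : α}
    (heJ : e ∉ J) (hecl : e ∈ M.closure J) (heK : e ∉ M.closure K) :
    ∃ z, z ∈ J ∧ z ∉ K ∧ M.Indep (insert e J \ {z}) := by
  have hC := hJ.fundCircuit_isCircuit hecl heJ
  have h1 : e ∈ M.closure (M.fundCircuit e J \ {e}) :=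
    hC.mem_closure_sdiff_singleton_of_mem (M.mem_fundCircuit e J)
  by_contra hno
  apply heK
  refine M.closure_subset_closure ?_ h1
  rintro z ⟨hzC, hze⟩
  have hzJ : z ∈ J := by
    rcases M.fundCircuit_subset_insert e J hzC with h | h
    · exact absurd h hze
    · exact h
  by_contra hzK
  exact hno ⟨z, hzJ, hzK, (hJ.mem_fundCircuit_iff hecl heJ).1 hzC⟩

/-- Case A: if no element of a level set can be added to `J` in `M`, then `J` splits as
required. -/
theorem caseA (M N : Matroid α) (hE : M.E = N.E) (J : Set α) (hJM : M.Indep J)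
    (hJN : N.Indep J)
    (hno : ∀ n x, x ∈ lev M N J n → ¬ M.Indep (insert x J)) :
    ∃ JM JN : Set α, Disjoint JM JN ∧ M.Indep (JM ∪ JN) ∧ N.Indep (JM ∪ JN) ∧
      M.closure JM ∪ N.closure JN = M.E := by
  classical
  set JM : Set α := {y | y ∈ J ∧ ∃ n x', x' ∈ lev M N J n ∧ Exch M J x' y} with hJMdef
  have hJMsub : JM ⊆ J := fun y hy => hy.1
  have hunion : JM ∪ (J \ JM) = J := by
    ext z
    constructor
    · rintro (h | h)
      · exact hJMsub h
      · exact h.1
    · intro h
      by_cases hz : z ∈ JM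
      · exact Or.inl hz
      · exact Or.inr ⟨h, hz⟩
  refine ⟨JM, J \ JM, disjoint_sdiff_right, by rw [hunion]; exact hJM,
    by rw [hunion]; exact hJN, ?_⟩
  apply Subset.antisymm
  · apply union_subset (M.closure_subset_ground _)
    rw [hE]
    exact N.closure_subset_ground _
  · intro e he
    by_cases heJ : e ∈ J
    · by_cases heJM : e ∈ JM
      · exact Or.inl (M.mem_closure_of_mem heJM (hJMsub.trans hJM.subset_ground))
      · exact Or.inr (N.mem_closure_of_mem ⟨heJ, heJM⟩ (sdiff_subset.trans hJN.subset_ground))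
    · by_cases hlev : ∃ n, e ∈ lev M N J n
      · obtain ⟨n, hn⟩ := hlev
        left
        have hecl : e ∈ M.closure J := by
          by_contra h
          exact hno n e hn ((hJM.notMem_closure_iff_of_notMem heJ he).1 h)
        by_contra heK
        obtain ⟨z, hzJ, hzK, hz⟩ := exists_exch hJM heJ hecl heK
        exact hzK ⟨hzJ, n, e, hn, heJ, hzJ, hz⟩
      · right
        have heN : e ∈ N.E := hE ▸ he
        have hecl : e ∈ N.closure J := by
          by_contra h
          exact hlev ⟨0, heJ, (hJN.notMem_closure_iff_of_notMem heJ heN).1 h⟩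
        by_contra heK
        obtain ⟨z, hzJ, hzK, hz⟩ := exists_exch hJN heJ hecl heK
        have hzJM : z ∈ JM := by
          by_contra h
          exact hzK ⟨hzJ, h⟩
        obtain ⟨_, n, x', hx', hx'z⟩ := hzJM
        exact hlev ⟨n + 1, z, x', ⟨heJ, hzJ, hz⟩, hx'z, hx'⟩

/-- `x` lies in level `n` and in no smaller level. -/
def Exact (M N : Matroid α) (J : Set α) (n : ℕ) (x : α) : Prop :=
  x ∈ lev M N J n ∧ ∀ m < n, x ∉ lev M N J m

theorem exact_step (M N : Matroid α) (J : Set α) (n : ℕ) (x : α)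
    (h : Exact M N J (n+1) x) :
    ∃ y x', Exch N J x y ∧ Exch M J x' y ∧ Exact M N J n x' := by
  obtain ⟨⟨y, x', h1, h2, h3⟩, hmin⟩ := h
  refine ⟨y, x', h1, h2, h3, ?_⟩
  intro m hm hx'
  exact hmin (m+1) (by omega) ⟨y, x', h1, h2, hx'⟩

theorem path (M N : Matroid α) (J : Set α) : ∀ (k : ℕ) (x0 : α), Exact M N J k x0 →
    ∃ (xs ys : ℕ → α), xs 0 = x0 ∧ (∀ i ≤ k, Exact M N J (k - i) (xs i)) ∧
      (∀ i < k, Exch N J (xs i) (ys i) ∧ Exch M J (xs (i+1)) (ys i)) := by
  intro k
  induction k with
  | zero =>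
    intro x0 h
    refine ⟨fun _ => x0, fun _ => x0, rfl, ?_, ?_⟩
    · intro i hi
      have hi0 : i = 0 := by omega
      subst hi0
      exact h
    · intro i hi
      omega
  | succ k ih =>
    intro x0 h
    obtain ⟨y, x', h1, h2, h3⟩ := exact_step M N J k x0 h
    obtain ⟨xs, ys, hx0, hex, hstep⟩ := ih x' h3
    refine ⟨fun i => Nat.casesOn i x0 xs, fun i => Nat.casesOn i y ys, rfl, ?_, ?_⟩
    · intro i hi
      cases i with
      | zero => exact h
      | succ i =>
        have h4 := hex i (by omega)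
        have h5 : k + 1 - (i + 1) = k - i := by omega
        rw [h5]
        exact h4
    · intro i hi
      cases i with
      | zero =>
        show Exch N J x0 y ∧ Exch M J (xs 0) y
        rw [hx0]
        exact ⟨h1, h2⟩
      | succ i => exact hstep i (by omega)

theorem diag_aux {M : Matroid α} {J : Set α} (hJ : M.Indep J) {a x y : α}
    (ha : M.Indep (insert a J)) (haJ : a ∉ J) (hx : Exch M J x y) (hxcl : x ∈ M.closure J) :
    M.Indep (insert x (insert a J) \ {y}) := by
  obtain ⟨hxJ, hyJ, hind⟩ := hx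
  have haE : a ∈ M.E := ha.subset_ground (mem_insert _ _)
  have hacl : a ∉ M.closure J := (hJ.notMem_closure_iff_of_notMem haJ haE).2 ha
  have hdep : M.Dep (insert x J) := hJ.insert_dep_iff.2 ⟨hxcl, hxJ⟩
  have hycl : y ∈ M.closure (insert x J \ {y}) := by
    rw [hind.mem_closure_iff]
    left
    have heq : insert y (insert x J \ {y}) = insert x J := by
      ext z
      simp only [mem_insert_iff, mem_sdiff, mem_singleton_iff]
      constructor
      · rintro (h | ⟨h, _⟩)
        · exact Or.inr (h ▸ hyJ)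
        · exact h
      · intro h
        by_cases hzy : z = y
        · exact Or.inl hzy
        · exact Or.inr ⟨h, hzy⟩
    rw [heq]
    exact hdep
  have hcleq : M.closure (insert x J \ {y}) = M.closure J :=
    hJ.closure_insert_sdiff_eq_of_mem_closure hxcl hycl
  have hane : a ≠ x := fun h => hacl (h ▸ hxcl)
  have hay : a ≠ y := fun h => haJ (h ▸ hyJ)
  have haI : a ∉ insert x J \ {y} := by
    rintro ⟨h | h, _⟩
    · exact hane h
    · exact haJ h
  have h1 : M.Indep (insert a (insert x J \ {y})) :=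
    (hind.notMem_closure_iff_of_notMem haI haE).1 (by rw [hcleq]; exact hacl)
  refine h1.subset ?_
  rintro z ⟨hz, hzy⟩
  rcases hz with h | h | h
  · exact Or.inr ⟨Or.inl h, hzy⟩
  · exact Or.inl h
  · exact Or.inr ⟨Or.inr h, hzy⟩

/-- Case B: a shortest augmenting path gives a larger common independent set. -/
theorem caseB (M N : Matroid α) (J : Set α) (hJM : M.Indep J) (hJN : N.Indep J)
    (hfin : J.Finite) (k : ℕ) (x0 : α) (hx0 : x0 ∈ lev M N J k)
    (hx0M : M.Indep (insert x0 J))
    (hmin : ∀ m < k, ∀ x, x ∈ lev M N J m → ¬ M.Indep (insert x J)) :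
    ∃ J', M.Indep J' ∧ N.Indep J' ∧ J.encard < J'.encard := by
  classical
  have hexact0 : Exact M N J k x0 := ⟨hx0, fun m hm h => hmin m hm x0 h hx0M⟩
  obtain ⟨xs, ys, hxs0, hex, hstep⟩ := path M N J k x0 hexact0
  have hxJ : ∀ i ≤ k, xs i ∉ J := fun i hi => lev_notMem M N J _ _ (hex i hi).1
  have hyJ : ∀ i < k, ys i ∈ J := fun i hi => (hstep i hi).1.2.1
  have hinj : ∀ i j, i < j → j ≤ k → xs i ≠ xs j := by
    intro i j hij hj heq
    have h1 := (hex j hj).1
    rw [← heq] at h1
    exact (hex i (by omega)).2 (k - j) (by omega) h1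
  have hxkN : N.Indep (insert (xs k) J) := by
    have h1 := (hex k le_rfl).1
    rw [Nat.sub_self] at h1
    exact h1.2
  have hx0M' : M.Indep (insert (xs 0) J) := by rw [hxs0]; exact hx0M
  have hMcl : ∀ j < k, xs (j+1) ∈ M.closure J := by
    intro j hj
    by_contra h
    have hE : xs (j+1) ∈ M.E := exch_ground (hstep j hj).2
    have h1 := (hJM.notMem_closure_iff_of_notMem (hxJ (j+1) (by omega)) hE).1 h
    exact hmin (k - (j+1)) (by omega) _ (hex (j+1) (by omega)).1 h1
  have hNcl : ∀ j < k, xs j ∈ N.closure J := by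
    intro j hj
    by_contra h
    have hE : xs j ∈ N.E := exch_ground (hstep j hj).1
    have h1 := (hJN.notMem_closure_iff_of_notMem (hxJ j (by omega)) hE).1 h
    exact (hex j (by omega)).2 0 (by omega) ⟨hxJ j (by omega), h1⟩
  -- the M side
  have hMside : M.Indep ((insert (xs 0) J \ range (fun i : Fin k => ys i)) ∪
      range (fun i : Fin k => xs (i+1))) := by
    apply tri M hx0M' (fun i : Fin k => xs (i+1)) (fun i : Fin k => ys i)
    · intro i
      exact Or.inr (hyJ i i.2)
    · rintro i (h | h)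
      · exact hinj 0 (i+1) (by omega) (by have := i.2; omega) h.symm
      · exact hxJ (i+1) (by have := i.2; omega) h
    · intro i
      exact diag_aux hJM hx0M' (hxJ 0 (by omega)) (hstep i i.2).2 (hMcl i i.2)
    · intro i j hij hind
      have hij' : (i : ℕ) < j := hij
      have h1 : M.Indep (insert (xs (j+1)) J \ {ys i}) := by
        refine hind.subset ?_
        rintro z ⟨hz, hzy⟩
        rcases hz with h | h
        · exact ⟨Or.inl h, hzy⟩
        · exact ⟨Or.inr (Or.inr h), hzy⟩
      have h2 : xs i ∈ lev M N J ((k - (j+1)) + 1) :=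
        ⟨ys i, xs (j+1), (hstep i i.2).1,
          ⟨hxJ (j+1) (by have := j.2; omega), hyJ i i.2, h1⟩,
          (hex (j+1) (by have := j.2; omega)).1⟩
      exact (hex i (by have := i.2; omega)).2 _ (by have := j.2; omega) h2
  -- the N side
  have hNside : N.Indep ((insert (xs k) J \ range (fun i : (Fin k)ᵒᵈ => ys ((OrderDual.ofDual i : Fin k) : ℕ))) ∪
      range (fun i : (Fin k)ᵒᵈ => xs ((OrderDual.ofDual i : Fin k) : ℕ))) := by
    apply tri N hxkN (fun i : (Fin k)ᵒᵈ => xs ((OrderDual.ofDual i : Fin k) : ℕ))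
      (fun i : (Fin k)ᵒᵈ => ys ((OrderDual.ofDual i : Fin k) : ℕ))
    · intro i
      exact Or.inr (hyJ _ (OrderDual.ofDual i).2)
    · rintro i (h | h)
      · exact hinj _ k (OrderDual.ofDual i).2 le_rfl h
      · exact hxJ _ (by have := (OrderDual.ofDual i).2; omega) h
    · intro i
      exact diag_aux hJN hxkN (hxJ k le_rfl) (hstep _ (OrderDual.ofDual i).2).1
        (hNcl _ (OrderDual.ofDual i).2)
    · intro i j hij hind
      have hij' : ((OrderDual.ofDual j : Fin k) : ℕ) < (OrderDual.ofDual i : Fin k) := hij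
      set a : Fin k := OrderDual.ofDual i with ha
      set b : Fin k := OrderDual.ofDual j with hb
      have h1 : N.Indep (insert (xs b) J \ {ys a}) := by
        refine hind.subset ?_
        rintro z ⟨hz, hzy⟩
        rcases hz with h | h
        · exact ⟨Or.inl h, hzy⟩
        · exact ⟨Or.inr (Or.inr h), hzy⟩
      have h2 : xs b ∈ lev M N J ((k - (a+1)) + 1) :=
        ⟨ys a, xs (a+1), ⟨hxJ b (by have := b.2; omega), hyJ a a.2, h1⟩,
          (hstep a a.2).2, (hex (a+1) (by have := a.2; omega)).1⟩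
      exact (hex b (by have := b.2; omega)).2 _ (by have := a.2; omega) h2
  -- the augmented set
  set X : Finset α := (Finset.range (k+1)).image xs with hX
  set Y : Finset α := (Finset.range k).image ys with hY
  refine ⟨(J \ (Y : Set α)) ∪ (X : Set α), hMside.subset ?_, hNside.subset ?_, ?_⟩
  · rintro z (⟨hzJ, hzY⟩ | hzX)
    · left
      refine ⟨Or.inr hzJ, ?_⟩
      rintro ⟨i, hi⟩
      apply hzY
      rw [hY, Finset.coe_image]
      exact ⟨i, by simp, hi⟩
    · rw [hX, Finset.coe_image] at hzX
      obtain ⟨i, hi, rfl⟩ := hzX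
      have hi' : i < k + 1 := by simpa using hi
      cases i with
      | zero =>
        left
        refine ⟨Or.inl rfl, ?_⟩
        rintro ⟨j, hj⟩
        have hj' : ys j = xs 0 := hj
        exact hxJ 0 (by omega) (hj' ▸ hyJ j j.2)
      | succ i =>
        right
        exact ⟨⟨i, by omega⟩, rfl⟩
  · rintro z (⟨hzJ, hzY⟩ | hzX)
    · left
      refine ⟨Or.inr hzJ, ?_⟩
      rintro ⟨i, hi⟩
      apply hzY
      rw [hY, Finset.coe_image]
      exact ⟨(OrderDual.ofDual i : Fin k), by simp, hi⟩
    · rw [hX, Finset.coe_image] at hzX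
      obtain ⟨i, hi, rfl⟩ := hzX
      have hi' : i < k + 1 := by simpa using hi
      by_cases hik : i = k
      · left
        rw [hik]
        refine ⟨Or.inl rfl, ?_⟩
        rintro ⟨j, hj⟩
        have hj' : ys ((OrderDual.ofDual j : Fin k) : ℕ) = xs k := hj
        exact hxJ k le_rfl (hj' ▸ hyJ _ (OrderDual.ofDual j).2)
      · right
        exact ⟨OrderDual.toDual (⟨i, by omega⟩ : Fin k), rfl⟩
  · have hdisj : Disjoint (J \ (Y : Set α)) (X : Set α) := by
      rw [Set.disjoint_left]
      rintro z ⟨hzJ, _⟩ hzX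
      rw [hX, Finset.coe_image] at hzX
      obtain ⟨i, hi, rfl⟩ := hzX
      have hi' : i < k + 1 := by simpa using hi
      exact hxJ i (by omega) hzJ
    rw [Set.encard_union_eq hdisj]
    have hXcard : (X : Set α).encard = ((k + 1 : ℕ) : ℕ∞) := by
      rw [Set.encard_coe_eq_coe_finsetCard, hX, Finset.card_image_of_injOn, Finset.card_range]
      intro i hi j hj hij
      have hi' : i < k + 1 := by simpa using hi
      have hj' : j < k + 1 := by simpa using hj
      by_contra hne
      rcases lt_or_gt_of_ne hne with h | h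
      · exact hinj i j h (by omega) hij
      · exact hinj j i h (by omega) hij.symm
    have hYcard : (Y : Set α).encard ≤ ((k : ℕ) : ℕ∞) := by
      rw [Set.encard_coe_eq_coe_finsetCard, hY]
      have h1 := Finset.card_image_le (s := Finset.range k) (f := ys)
      rw [Finset.card_range] at h1
      exact_mod_cast h1
    have h1 : J.encard ≤ (J \ (Y : Set α)).encard + (Y : Set α).encard :=
      Set.encard_le_encard_sdiff_add_encard J Y
    have h2 : J.encard + 1 ≤ (J \ (Y : Set α)).encard + (X : Set α).encard := by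
      rw [hXcard]
      calc J.encard + 1 ≤ (J \ (Y : Set α)).encard + (Y : Set α).encard + 1 := by gcongr
        _ ≤ (J \ (Y : Set α)).encard + ((k : ℕ) : ℕ∞) + 1 := by gcongr
        _ = (J \ (Y : Set α)).encard + ((k + 1 : ℕ) : ℕ∞) := by push_cast; rw [add_assoc]
    have hne : J.encard ≠ ⊤ := (Set.encard_lt_top_iff.2 hfin).ne
    exact (ENat.add_one_le_iff hne).1 h2

/-- **Matroid intersection for pairs with bounded common independent sets.**
Let `M` and `N` be matroids (in the sense of Bruhn-Diestel-Kriesell-Pendavingh-Wollan, on a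
ground set of arbitrary cardinality) with the same ground set, and suppose the sets
independent in both have bounded finite size. Then the pair satisfies intersection: there is
a common independent set `J = J_M ∪ J_N` (disjoint union) with
`cl_M(J_M) ∪ cl_N(J_N) = E`. -/
theorem result {α : Type*} (M N : Matroid α) (hE : M.E = N.E)
    (hb : ∃ n : ℕ, ∀ I : Set α, M.Indep I → N.Indep I → I.encard ≤ n) :
    ∃ JM JN : Set α, Disjoint JM JN ∧ M.Indep (JM ∪ JN) ∧ N.Indep (JM ∪ JN) ∧
      M.closure JM ∪ N.closure JN = M.E := by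
  classical
  -- a common independent set of maximum size
  have hmax : ∃ J, M.Indep J ∧ N.Indep J ∧ J.Finite ∧
      ∀ I, M.Indep I → N.Indep I → I.encard ≤ J.encard := by
    have hspec := Nat.find_spec hb
    rcases Nat.eq_zero_or_pos (Nat.find hb) with h0 | hpos
    · refine ⟨∅, M.empty_indep, N.empty_indep, Set.finite_empty, ?_⟩
      intro I hIM hIN
      have h1 := hspec I hIM hIN
      rw [h0] at h1
      simpa using h1
    · have hnot := Nat.find_min hb (Nat.sub_lt hpos Nat.one_pos)
      rw [not_forall] at hnot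
      obtain ⟨J, hJ⟩ := hnot
      rw [Classical.not_imp, Classical.not_imp, not_le] at hJ
      obtain ⟨hJM, hJN, hJlt⟩ := hJ
      have hJle := hspec J hJM hJN
      refine ⟨J, hJM, hJN, Set.finite_of_encard_le_coe hJle, ?_⟩
      intro I hIM hIN
      refine (hspec I hIM hIN).trans ?_
      have h2 : ((Nat.find hb - 1 : ℕ) : ℕ∞) + 1 ≤ J.encard := ENat.natCast_add_one_le_iff.2 hJlt
      have h3 : ((Nat.find hb : ℕ) : ℕ∞) = ((Nat.find hb - 1 : ℕ) : ℕ∞) + 1 := by
        have h4 : Nat.find hb = (Nat.find hb - 1) + 1 := by omega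
        conv_lhs => rw [h4]
        push_cast
        rfl
      rw [h3]
      exact h2
  obtain ⟨J, hJM, hJN, hJfin, hJmax⟩ := hmax
  by_cases hA : ∀ n x, x ∈ lev M N J n → ¬ M.Indep (insert x J)
  · exact caseA M N hE J hJM hJN hA
  · exfalso
    have hex : ∃ n, ∃ x, x ∈ lev M N J n ∧ M.Indep (insert x J) := by
      by_contra h
      apply hA
      intro n x hx hind
      exact h ⟨n, x, hx, hind⟩
    obtain ⟨x0, hx0, hx0M⟩ := Nat.find_spec hex
    have hmin : ∀ m < Nat.find hex, ∀ x, x ∈ lev M N J m → ¬ M.Indep (insert x J) := by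
      intro m hm x hx hind
      exact Nat.find_min hex hm ⟨x, hx, hind⟩
    obtain ⟨J', hJ'M, hJ'N, hlt⟩ := caseB M N J hJM hJN hJfin (Nat.find hex) x0 hx0 hx0M hmin
    exact absurd (hJmax J' hJ'M hJ'N) (not_le.2 hlt)

end Vale.Agent.Results.P068.BoundedCommonIndep
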