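import Vale.Agent.Results.P068.FiniteRankPartner
import Vale.Agent.Helper14.P068Dual

/-!
P068, matroid intersection: a pair of matroids on a common ground set in which at least one
matroid has finite rank or finite corank (its dual `M✶` has finite rank) satisfies intersection.
The finite-corank cases are obtained from the finite-rank case for the dual pair by a direct
duality argument (`Helper14.P068Dual.intersection_of_dual`). The statement uses Mathlib notions
only.
-/

namespace Vale.Agent.Results.P068.FiniteRankOrCorank

open Matroid

/-- Let `M` and `N` be matroids with the same ground set (of arbitrary cardinality), at least one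
of them of finite rank or of finite corank. Then the pair satisfies intersection: there is a
common independent set `J = J_M ∪ J_N` (disjoint union) with `cl_M(J_M) ∪ cl_N(J_N) = E`. -/
theorem result {α : Type*} (M N : Matroid α) (hE : M.E = N.E)
    (h : M.RankFinite ∨ N.RankFinite ∨ M✶.RankFinite ∨ N✶.RankFinite) :
    ∃ JM JN : Set α, Disjoint JM JN ∧ M.Indep (JM ∪ JN) ∧ N.Indep (JM ∪ JN) ∧
      M.closure JM ∪ N.closure JN = M.E := by
  rcases h with h | h | h | h
  · exact Vale.Agent.Results.P068.FiniteRankPartner.result M N hE (Or.inl h)
  · exact Vale.Agent.Results.P068.FiniteRankPartner.result M N hE (Or.inr h)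
  · exact Vale.Agent.Helper14.P068Dual.intersection_of_dual M N hE
      (Vale.Agent.Results.P068.FiniteRankPartner.result M✶ N✶ hE (Or.inl h))
  · exact Vale.Agent.Helper14.P068Dual.intersection_of_dual M N hE
      (Vale.Agent.Results.P068.FiniteRankPartner.result M✶ N✶ hE (Or.inr h))

end Vale.Agent.Results.P068.FiniteRankOrCorank
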