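import Vale.Agent.Results.P068.BoundedCommonIndep

/-!
P068, matroid intersection: a pair of matroids on a common ground set in which at least one
matroid has finite rank satisfies intersection. Direct form of the special case named in
`BoundedCommonIndep`; the statement uses Mathlib notions only.
-/

namespace Vale.Agent.Results.P068.FiniteRankPartner

/-- Let `M` and `N` be matroids with the same ground set (of arbitrary cardinality), at least one
of them of finite rank. Then the pair satisfies intersection: there is a common independent set
`J = J_M ∪ J_N` (disjoint union) with `cl_M(J_M) ∪ cl_N(J_N) = E`. -/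
theorem result {α : Type*} (M N : Matroid α) (hE : M.E = N.E)
    (hfr : M.RankFinite ∨ N.RankFinite) :
    ∃ JM JN : Set α, Disjoint JM JN ∧ M.Indep (JM ∪ JN) ∧ N.Indep (JM ∪ JN) ∧
      M.closure JM ∪ N.closure JN = M.E := by
  rcases hfr with hM | hN
  · obtain ⟨B0, hB0, hfin⟩ := hM.exists_finite_isBase
    refine Vale.Agent.Results.P068.BoundedCommonIndep.result M N hE
      ⟨B0.ncard, fun I hI _ => ?_⟩
    obtain ⟨B, hB, hIB⟩ := hI.exists_isBase_superset
    calc I.encard ≤ B.encard := Set.encard_le_encard hIB
      _ = B0.encard := hB.encard_eq_encard_of_isBase hB0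
      _ = B0.ncard := (hfin.cast_ncard_eq).symm
  · obtain ⟨B0, hB0, hfin⟩ := hN.exists_finite_isBase
    refine Vale.Agent.Results.P068.BoundedCommonIndep.result M N hE
      ⟨B0.ncard, fun I _ hI => ?_⟩
    obtain ⟨B, hB, hIB⟩ := hI.exists_isBase_superset
    calc I.encard ≤ B.encard := Set.encard_le_encard hIB
      _ = B0.encard := hB.encard_eq_encard_of_isBase hB0
      _ = B0.ncard := (hfin.cast_ncard_eq).symm

end Vale.Agent.Results.P068.FiniteRankPartner
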