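import Vale.Agent.Results.P068.PackingCoveringPairs
import Vale.Agent.Helper14.P068Fam

/-!
P068, packing/covering partitions (part (a) of the question), stated with Mathlib notions only;
the contraction onto `C` is written as in the problem file, `M.C = (M✶ ↾ C)✶`.

(1) Two-member families `(M, N)` with one member of finite rank or finite corank (this is the
statement of `PackingCoveringPairs`).
(2) Finite families all of whose members have finite rank, or all of whose members have finite
corank. Derived from `FiniteRankOrCorank` applied to the direct sum `⊕ M_i` on `Θ × α` and the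
partition matroid (at most one copy of each element) (`Helper14.P068Fam.family_pc`).
-/

namespace Vale.Agent.Results.P068.PackingCoveringFamilies

open Matroid

theorem result.{u, v} {α : Type u} :
    (∀ (M N : Matroid α), M.E = N.E →
      (M.RankFinite ∨ N.RankFinite ∨ M✶.RankFinite ∨ N✶.RankFinite) →
      ∃ P C SM SN IM IN : Set α, P ∪ C = M.E ∧ Disjoint P C ∧ SM ⊆ P ∧ SN ⊆ P ∧
        Disjoint SM SN ∧ (M ↾ P).closure SM = P ∧ (N ↾ P).closure SN = P ∧ IM ⊆ C ∧ IN ⊆ C ∧
        ((M✶ ↾ C)✶).Indep IM ∧ ((N✶ ↾ C)✶).Indep IN ∧ IM ∪ IN = C) ∧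
    (∀ (Θ : Type v) [Finite Θ] (M : Θ → Matroid α) (E : Set α), (∀ i, (M i).E = E) →
      ((∀ i, (M i).RankFinite) ∨ (∀ i, (M i)✶.RankFinite)) →
      ∃ (P C : Set α) (S I : Θ → Set α), P ∪ C = E ∧ Disjoint P C ∧ (∀ i, S i ⊆ P) ∧
        (∀ i j, i ≠ j → Disjoint (S i) (S j)) ∧ (∀ i, ((M i) ↾ P).closure (S i) = P) ∧
        (∀ i, I i ⊆ C) ∧ (∀ i, (((M i)✶ ↾ C)✶).Indep (I i)) ∧ (⋃ i, I i) = C) :=
  ⟨fun M N hE h => Vale.Agent.Results.P068.PackingCoveringPairs.result M N hE h,
    fun _ _ M E hE h => Vale.Agent.Helper14.P068Fam.family_pc M E hE h⟩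

end Vale.Agent.Results.P068.PackingCoveringFamilies
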