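import Vale.Agent.Results.P068.FiniteRankOrCorank
import Vale.Agent.Helper14.P068PC

/-!
P068, packing/covering: a two-member family `(M, N)` of matroids on a common ground set, one of
which has finite rank or finite corank, has a packing/covering partition. The contraction onto
`C` is written as in the problem file, `M.C = (M✶ ↾ C)✶`. Derived from `FiniteRankOrCorank`
applied to the pair `(M, N✶)` and one direction of the Bowler-Carmesin equivalence
(`Helper14.P068PC.packing_covering_of_intersection`). The statement uses Mathlib notions only.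
-/

namespace Vale.Agent.Results.P068.PackingCoveringPairs

open Matroid

/-- Let `M` and `N` be matroids with the same ground set `E`, at least one of them of finite
rank or of finite corank. Then `(M, N)` has a packing/covering partition: `E = P ⊔ C`, disjoint
`S_M, S_N ⊆ P` spanning `P` in `M ↾ P` and in `N ↾ P` respectively, and `I_M, I_N ⊆ C`,
independent in the contractions `(M✶ ↾ C)✶` and `(N✶ ↾ C)✶` respectively, with
`I_M ∪ I_N = C`. -/
theorem result {α : Type*} (M N : Matroid α) (hE : M.E = N.E)
    (h : M.RankFinite ∨ N.RankFinite ∨ M✶.RankFinite ∨ N✶.RankFinite) :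
    ∃ P C SM SN IM IN : Set α, P ∪ C = M.E ∧ Disjoint P C ∧ SM ⊆ P ∧ SN ⊆ P ∧
      Disjoint SM SN ∧ (M ↾ P).closure SM = P ∧ (N ↾ P).closure SN = P ∧ IM ⊆ C ∧ IN ⊆ C ∧
      ((M✶ ↾ C)✶).Indep IM ∧ ((N✶ ↾ C)✶).Indep IN ∧ IM ∪ IN = C := by
  apply Vale.Agent.Helper14.P068PC.packing_covering_of_intersection M N hE
  refine Vale.Agent.Results.P068.FiniteRankOrCorank.result M N✶ hE ?_
  rcases h with h | h | h | h
  · exact Or.inl h
  · exact Or.inr (Or.inr (Or.inr (by rwa [dual_dual])))
  · exact Or.inr (Or.inr (Or.inl h))
  · exact Or.inr (Or.inl h)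

end Vale.Agent.Results.P068.PackingCoveringPairs
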